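import Mathlib

/-!
P245, abstract layer (helper806): resolvents only.  `A ≥ 0` symmetric with resolvents `J t`, bounded forms
`⟨G k x, x⟩` on a real Hilbert space.
-/

set_option linter.all false

open Filter Topology Set

namespace Vale.Agent.P245.H806.AbsR

variable {H : Type*} [NormedAddCommGroup H] [InnerProductSpace ℝ H]

/-- resolvents of a nonnegative symmetric operator -/
structure Rsv (D : Submodule ℝ H) (A : D →ₗ[ℝ] H) (J : ℝ → H →ₗ[ℝ] D) : Prop where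
  sym : ∀ z w : D, inner ℝ (A z) (w : H) = inner ℝ (z : H) (A w)
  pos : ∀ z : D, 0 ≤ inner ℝ (A z) (z : H)
  res : ∀ t : ℝ, 0 < t → ∀ x : H, ((J t x : D) : H) + t • A (J t x) = x

section res
variable {D : Submodule ℝ H} {A : D →ₗ[ℝ] H} {J : ℝ → H →ₗ[ℝ] D}

theorem Rsv.uniq (h : Rsv D A J) {t : ℝ} (ht : 0 < t) {z w : D}
    (e : (z : H) + t • A z = (w : H) + t • A w) : z = w := by
  have h1 : ((z - w : D) : H) + t • A (z - w) = 0 := by
    rw [map_sub, smul_sub, AddSubgroupClass.coe_sub]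
    have : (z : H) - w + (t • A z - t • A w) = ((z : H) + t • A z) - ((w : H) + t • A w) := by abel
    rw [this, e, sub_self]
  have h2 : inner ℝ (((z - w : D) : H) + t • A (z - w)) ((z - w : D) : H) = 0 := by
    rw [h1, inner_zero_left]
  rw [inner_add_left, real_inner_smul_left, real_inner_self_eq_norm_sq] at h2
  have h3 := h.pos (z - w)
  have h4 : ‖((z - w : D) : H)‖ ^ 2 = 0 := by
    have := mul_nonneg ht.le h3
    have h5 := sq_nonneg ‖((z - w : D) : H)‖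
    linarith
  have h5 : ((z - w : D) : H) = 0 := by
    rw [← norm_eq_zero]; exact pow_eq_zero_iff (two_ne_zero) |>.1 h4
  have h6 : z - w = 0 := Subtype.ext h5
  exact sub_eq_zero.1 h6

theorem Rsv.J_eq (h : Rsv D A J) {t : ℝ} (ht : 0 < t) {z : D} {x : H}
    (e : (z : H) + t • A z = x) : J t x = z :=
  h.uniq ht ((h.res t ht x).trans e.symm)

theorem Rsv.J_self (h : Rsv D A J) {t : ℝ} (ht : 0 < t) (z : D) :
    J t ((z : H) + t • A z) = z := h.J_eq ht rfl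

theorem Rsv.tAJ (h : Rsv D A J) {t : ℝ} (ht : 0 < t) (x : H) :
    t • A (J t x) = x - (J t x : H) := by
  have := h.res t ht x
  exact eq_sub_of_add_eq' this

theorem Rsv.AJ (h : Rsv D A J) {t : ℝ} (ht : 0 < t) (x : H) :
    A (J t x) = t⁻¹ • (x - (J t x : H)) := by
  rw [← h.tAJ ht, smul_smul, inv_mul_cancel₀ ht.ne', one_smul]

theorem Rsv.JA (h : Rsv D A J) {t : ℝ} (ht : 0 < t) (z : D) :
    J t (A z) = t⁻¹ • (z - J t (z : H)) := by
  refine h.J_eq ht ?_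
  rw [map_smul, map_sub, smul_smul, mul_inv_cancel₀ ht.ne', one_smul, h.AJ ht]
  simp

theorem Rsv.A_J (h : Rsv D A J) {t : ℝ} (ht : 0 < t) (z : D) :
    A (J t (z : H)) = (J t (A z) : H) := by
  rw [h.JA ht, h.AJ ht]; simp

theorem Rsv.comm (h : Rsv D A J) {s t : ℝ} (hs : 0 < s) (ht : 0 < t) (x : H) :
    J s (J t x : H) = J t (J s x : H) := by
  symm
  refine h.J_eq ht ?_
  rw [h.A_J hs]
  have h1 : ((J s (J t x : H) : D) : H) + t • ((J s (A (J t x)) : D) : H) =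
      ((J s ((J t x : H) + t • A (J t x)) : D) : H) := by simp
  rw [h1, h.res t ht]

theorem Rsv.id (h : Rsv D A J) {s t : ℝ} (hs : 0 < s) (ht : 0 < t) (x : H) :
    J t x - J s x = (s - t) • J t (A (J s x)) := by
  rw [← map_smul]
  symm
  refine h.J_eq ht ?_
  rw [map_sub, smul_sub]
  have h1 := h.res t ht x
  have h2 := h.res s hs x
  have h3 : ((J t x - J s x : D) : H) + (t • A (J t x) - t • A (J s x)) =
      ((J t x : H) + t • A (J t x)) - ((J s x : H) + t • A (J s x)) := by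
    rw [AddSubgroupClass.coe_sub]; abel
  rw [h3, h1]
  nth_rw 1 [← h2]
  rw [sub_smul]; abel

theorem Rsv.norm_sq_le (h : Rsv D A J) {t : ℝ} (ht : 0 < t) (x : H) :
    ‖(J t x : H)‖ ^ 2 ≤ inner ℝ (J t x : H) x := by
  have h1 : inner ℝ (J t x : H) x = inner ℝ (J t x : H) ((J t x : H) + t • A (J t x)) := by
    rw [h.res t ht]
  rw [h1, inner_add_right, real_inner_self_eq_norm_sq, real_inner_smul_right, ← h.sym]
  have := mul_nonneg ht.le (h.pos (J t x))
  linarith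

theorem Rsv.norm_le (h : Rsv D A J) {t : ℝ} (ht : 0 < t) (x : H) : ‖(J t x : H)‖ ≤ ‖x‖ := by
  have h1 := h.norm_sq_le ht x
  have h2 := real_inner_le_norm (J t x : H) x
  by_contra hc
  have hc := not_le.1 hc
  have h3 := norm_nonneg x
  nlinarith

theorem Rsv.norm_sub_le (h : Rsv D A J) {t : ℝ} (ht : 0 < t) (x : H) : ‖x - (J t x : H)‖ ≤ ‖x‖ := by
  have h1 := h.norm_sq_le ht x
  have h2 : ‖x - (J t x : H)‖ ^ 2 ≤ ‖x‖ ^ 2 := by
    rw [@norm_sub_sq_real]
    rw [real_inner_comm] at h1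
    have := sq_nonneg ‖(J t x : H)‖
    linarith
  exact le_of_sq_le_sq h2 (norm_nonneg _) |> fun h => h

theorem Rsv.J_sym (h : Rsv D A J) {t : ℝ} (ht : 0 < t) (x y : H) :
    inner ℝ (J t x : H) y = inner ℝ x (J t y : H) := by
  have h1 : inner ℝ (J t x : H) y = inner ℝ (J t x : H) ((J t y : H) + t • A (J t y)) := by
    rw [h.res t ht]
  have h2 : inner ℝ x (J t y : H) = inner ℝ ((J t x : H) + t • A (J t x)) (J t y : H) := by
    rw [h.res t ht]
  rw [h1, h2, inner_add_right, inner_add_left, real_inner_smul_right, real_inner_smul_left, h.sym]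

theorem Rsv.lip (h : Rsv D A J) {s t : ℝ} (hs : 0 < s) (ht : 0 < t) (x : H) :
    ‖(J t x : H) - (J s x : H)‖ ≤ |t - s| * ‖A (J s x)‖ := by
  have h1 := congrArg (Subtype.val) (h.id hs ht x)
  have h2 : (J t x : H) - (J s x : H) = (s - t) • ((J t (A (J s x)) : D) : H) := by
    simpa using h1
  rw [h2, norm_smul, Real.norm_eq_abs, abs_sub_comm]
  exact mul_le_mul_of_nonneg_left (h.norm_le ht _) (abs_nonneg _)

theorem Rsv.hasDeriv (h : Rsv D A J) {s : ℝ} (hs : 0 < s) {u : ℝ → H} {u' : H} (hu : HasDerivAt u u' s) :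
    HasDerivAt (fun t => ((J t (u t) : D) : H)) ((J s (u' - A (J s (u s))) : D) : H) s := by
  rw [hasDerivAt_iff_isLittleO] at hu ⊢
  set v := A (J s (u s)) with hv
  have key : (fun t => ((J t (u t) : D) : H) - ((J s (u s) : D) : H) - (t - s) • ((J s (u' - v) : D) : H))
      =ᶠ[𝓝 s] fun t => ((J t (u t - u s - (t - s) • u') : D) : H) +
        (t - s) • (((J t (u' - v) : D) : H) - ((J s (u' - v) : D) : H)) := by
    filter_upwards [lt_mem_nhds hs] with t ht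
    have h1 := congrArg (Subtype.val) (h.id hs ht (u s))
    have h2 : (J t (u s) : H) - (J s (u s) : H) = (s - t) • ((J t v : D) : H) := by
      simpa using h1
    simp only [map_sub, map_smul, AddSubgroupClass.coe_sub, SetLike.val_smul]
    have h3 : ((J s (u s) : D) : H) = (J t (u s) : H) - (s - t) • ((J t v : D) : H) := by
      rw [← h2]; abel
    rw [h3]
    module
  refine key.trans_isLittleO ?_
  refine Asymptotics.IsLittleO.add ?_ ?_
  · refine Asymptotics.IsBigO.trans_isLittleO ?_ hu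
    refine Asymptotics.IsBigO.of_bound 1 ?_
    filter_upwards [lt_mem_nhds hs] with t ht
    rw [one_mul]
    exact h.norm_le ht _
  · have h1 : (fun t : ℝ => (t - s) • (((J t (u' - v) : D) : H) - ((J s (u' - v) : D) : H)))
        =o[𝓝 s] fun t : ℝ => (t - s) • (1 : ℝ) := by
      refine Asymptotics.IsBigO.smul_isLittleO (Asymptotics.isBigO_refl _ _) ?_
      rw [Asymptotics.isLittleO_one_iff]
      have h2 : Tendsto (fun t : ℝ => |t - s| * ‖A (J s (u' - v))‖) (𝓝 s) (𝓝 (|s - s| * ‖A (J s (u' - v))‖)) := by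
        refine Tendsto.mul_const _ ?_
        exact ((continuous_id.sub continuous_const).abs.tendsto s)
      rw [sub_self, abs_zero, zero_mul] at h2
      refine squeeze_zero_norm' ?_ h2
      filter_upwards [lt_mem_nhds hs] with t ht
      exact h.lip hs ht _
    simpa using h1

theorem Rsv.tendsto_D (h : Rsv D A J) (z : D) :
    Tendsto (fun t => ((J t (z : H) : D) : H)) (𝓝[>] 0) (𝓝 (z : H)) := by
  have h1 : Tendsto (fun t : ℝ => t * ‖A z‖) (𝓝[>] 0) (𝓝 0) := by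
    have : Tendsto (fun t : ℝ => t * ‖A z‖) (𝓝 0) (𝓝 (0 * ‖A z‖)) := (continuous_id.mul continuous_const).tendsto 0
    rw [zero_mul] at this
    exact this.mono_left nhdsWithin_le_nhds
  rw [tendsto_iff_norm_sub_tendsto_zero]
  refine squeeze_zero' (Eventually.of_forall fun _ => norm_nonneg _) ?_ h1
  filter_upwards [self_mem_nhdsWithin] with t ht
  have ht' : 0 < t := ht
  have h2 := h.tAJ ht' (z : H)
  rw [norm_sub_rev, ← h2, norm_smul, Real.norm_eq_abs, abs_of_pos ht', h.A_J ht']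
  exact mul_le_mul_of_nonneg_left (h.norm_le ht' _) ht'.le

theorem Rsv.dense [CompleteSpace H] (h : Rsv D A J) : D.topologicalClosure = ⊤ := by
  rw [Submodule.topologicalClosure_eq_top_iff, Submodule.eq_bot_iff]
  intro x hx
  have h1 : inner ℝ ((J 1 x : D) : H) x = 0 := (Submodule.mem_orthogonal D x).1 hx _ (J 1 x).2
  have h2 := h.norm_sq_le one_pos x
  rw [h1] at h2
  have h3 : ((J 1 x : D) : H) = 0 := by
    rw [← norm_eq_zero]
    have := sq_nonneg ‖((J 1 x : D) : H)‖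
    exact pow_eq_zero_iff (two_ne_zero) |>.1 (le_antisymm h2 this)
  have h4 : J 1 x = 0 := Subtype.ext h3
  have h5 := h.res 1 one_pos x
  rw [h4] at h5
  simpa using h5.symm

theorem Rsv.tendsto [CompleteSpace H] (h : Rsv D A J) (x : H) :
    Tendsto (fun t => ((J t x : D) : H)) (𝓝[>] 0) (𝓝 x) := by
  rw [Metric.tendsto_nhds]
  intro ε hε
  have hx : x ∈ D.topologicalClosure := by rw [h.dense]; trivial
  obtain ⟨z, hz, hzx⟩ := Metric.mem_closure_iff.1 (show x ∈ closure (D : Set H) from hx) (ε / 3) (by positivity)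
  have h1 := Metric.tendsto_nhds.1 (h.tendsto_D ⟨z, hz⟩) (ε / 3) (by positivity)
  filter_upwards [h1, self_mem_nhdsWithin] with t ht1 ht2
  have h2 : ‖((J t x : D) : H) - ((J t z : D) : H)‖ ≤ ‖x - z‖ := by
    have := h.norm_le ht2 (x - z)
    simpa using this
  rw [dist_eq_norm] at hzx ht1 ⊢
  calc ‖((J t x : D) : H) - x‖ = ‖(((J t x : D) : H) - ((J t z : D) : H)) + (((J t z : D) : H) - z) + (z - x)‖ := by
        congr 1; abel
    _ ≤ ‖(((J t x : D) : H) - ((J t z : D) : H))‖ + ‖(((J t z : D) : H) - z)‖ + ‖z - x‖ := norm_add₃_le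
    _ < ε := by
        rw [norm_sub_rev z x]
        linarith

end res


/-! ### bounded forms -/

theorem cs_form (B : H →L[ℝ] H →L[ℝ] ℝ) (hs : ∀ x y, B x y = B y x) (hp : ∀ x, 0 ≤ B x x) (x y : H) :
    (B x y) ^ 2 ≤ B x x * B y y := by
  have h1 : ∀ r : ℝ, 0 ≤ B x x * (r * r) + (2 * B x y) * r + B y y := by
    intro r
    have := hp (r • x + y)
    simp only [map_add, map_smul, add_apply, smul_apply, smul_eq_mul] at this
    rw [hs y x] at this
    linarith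
  have h2 := discrim_le_zero h1
  unfold discrim at h2
  nlinarith

/-- seminorm of a form -/
noncomputable def sn (B : H →L[ℝ] H →L[ℝ] ℝ) (x : H) : ℝ := Real.sqrt (B x x)

theorem sn_nonneg (B : H →L[ℝ] H →L[ℝ] ℝ) (x : H) : 0 ≤ sn B x := Real.sqrt_nonneg _

theorem sn_sq (B : H →L[ℝ] H →L[ℝ] ℝ) (hp : ∀ x, 0 ≤ B x x) (x : H) : sn B x ^ 2 = B x x :=
  Real.sq_sqrt (hp x)

theorem sn_smul (B : H →L[ℝ] H →L[ℝ] ℝ) {c : ℝ} (hc : 0 ≤ c) (x : H) : sn B (c • x) = c * sn B x := by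
  unfold sn
  have : B (c • x) (c • x) = c ^ 2 * B x x := by
    simp only [map_smul, smul_apply, smul_eq_mul]; ring
  rw [this, Real.sqrt_mul (sq_nonneg c), Real.sqrt_sq hc]

theorem cs_sn (B : H →L[ℝ] H →L[ℝ] ℝ) (hs : ∀ x y, B x y = B y x) (hp : ∀ x, 0 ≤ B x x) (x y : H) :
    B x y ≤ sn B x * sn B y := by
  have h1 := cs_form B hs hp x y
  have h2 : B x y ^ 2 ≤ (sn B x * sn B y) ^ 2 := by
    rw [mul_pow, sn_sq B hp, sn_sq B hp]; exact h1
  exact le_of_sq_le_sq h2 (mul_nonneg (sn_nonneg _ _) (sn_nonneg _ _))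

theorem sn_add (B : H →L[ℝ] H →L[ℝ] ℝ) (hs : ∀ x y, B x y = B y x) (hp : ∀ x, 0 ≤ B x x) (x y : H) :
    sn B (x + y) ≤ sn B x + sn B y := by
  have h1 := cs_sn B hs hp x y
  have hx := sn_sq B hp x
  have hy := sn_sq B hp y
  have hx0 := sn_nonneg B x
  have hy0 := sn_nonneg B y
  refine Real.sqrt_le_iff.2 ⟨add_nonneg hx0 hy0, ?_⟩
  simp only [map_add, add_apply]
  rw [hs y x]
  nlinarith

section forms
variable {D : Submodule ℝ H} {A : D →ₗ[ℝ] H} {J : ℝ → H →ₗ[ℝ] D}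

/-- the gradient form: `(B(z, A e) + B(A z, e) + X(z, e)) / 2` -/
noncomputable def Kf (A : D →ₗ[ℝ] H) (B X : H →L[ℝ] H →L[ℝ] ℝ) (z e : D) : ℝ :=
  (B z (A e) + B (A z) e + X z e) / 2

/-- one step of the path -/
theorem step_real {Fz FA P X K F' Fw σ t k : ℝ} (hFz : 0 ≤ Fz) (hFA : 0 ≤ FA) (hK : 0 ≤ K) (hσ : 0 ≤ σ)
    (ht : 0 < t) (hk : 0 < k) (htk : t ≤ 1 / k) (hw : 0 ≤ Fw) (hKP : K = P + X / 2) (hX : X ^ 2 ≤ 4 * (σ * K * Fz))
    (hF' : F' = Fz - X / k) (hFw : Fw = Fz + 2 * t * P + t ^ 2 * FA) :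
    F' ≤ (1 + σ / (2 * t * k ^ 2)) * Fw := by
  have hc : 0 ≤ σ / (2 * t * k ^ 2) := by positivity
  set c := σ / (2 * t * k ^ 2) with hcd
  have hP : P = K - X / 2 := by linarith
  have hFw2 : Fw = Fz + 2 * t * K - t * X + t ^ 2 * FA := by rw [hFw, hP]; ring
  have htA : 0 ≤ t ^ 2 * FA := by positivity
  have htK : 0 ≤ 2 * t * K := by positivity
  rcases le_or_gt 0 X with hX0 | hX0
  · have h1 : t * X ≤ X / k := by
      have := mul_le_mul_of_nonneg_right htk hX0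
      calc t * X ≤ 1 / k * X := this
        _ = X / k := by ring
    have h2 : F' ≤ Fw := by rw [hF', hFw2]; linarith
    nlinarith [mul_nonneg hc hw]
  · have h1 : Fz + 2 * t * K ≤ Fw := by rw [hFw2]; nlinarith
    have h2 : -X / k ≤ 2 * t * K + c * Fz := by
      have h3 : (-X / k) ^ 2 ≤ (2 * t * K + c * Fz) ^ 2 := by
        have h4 : (-X / k) ^ 2 ≤ 4 * ((2 * t * K) * (c * Fz)) := by
          have h5 : (2 * t * K) * (c * Fz) = (σ * K * Fz) / k ^ 2 := by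
            rw [hcd]; field_simp
          rw [h5, div_pow, neg_sq]
          calc X ^ 2 / k ^ 2 ≤ (4 * (σ * K * Fz)) / k ^ 2 := by gcongr
            _ = _ := by ring
        have h6 : 0 ≤ (2 * t * K - c * Fz) ^ 2 := sq_nonneg _
        nlinarith
      exact le_of_sq_le_sq h3 (by positivity)
    have h3 : F' ≤ Fw + c * Fz := by
      rw [hF']
      have : Fz - X / k = Fz + -X / k := by ring
      rw [this]; linarith
    have h4 : c * Fz ≤ c * Fw := mul_le_mul_of_nonneg_left (by linarith) hc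
    linarith

/-- `X` at level `k + 1` -/
noncomputable def Xf (B : ℕ → H →L[ℝ] H →L[ℝ] ℝ) (k : ℕ) : H →L[ℝ] H →L[ℝ] ℝ :=
  ((k : ℝ) + 1) • (B (k + 1) - B k)

/-- the hypotheses on the chain of forms -/
structure Chain (A : D →ₗ[ℝ] H) (B : ℕ → H →L[ℝ] H →L[ℝ] ℝ) : Prop where
  symm : ∀ k x y, B k x y = B k y x
  nonneg : ∀ k x, 0 ≤ B k x x
  mono : ∀ (k : ℕ) x, B k x x ≤ (((k : ℝ) + 2) / ((k : ℝ) + 1)) * B (k + 1) x x
  cs : ∀ (k : ℕ) (z e : D), (B (k + 1) (A z) e - Kf A (B (k + 1)) (Xf B k) z e) ^ 2 ≤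
    9 / ((k : ℝ) + 3) * Kf A (B (k + 1)) (Xf B k) z z * B (k + 1) (e : H) e
  Kpos : ∀ (k : ℕ) (z : D), 0 ≤ Kf A (B (k + 1)) (Xf B k) z z
  lim : ∀ x, Tendsto (fun k => B k x x) atTop (𝓝 (‖x‖ ^ 2))

variable {B : ℕ → H →L[ℝ] H →L[ℝ] ℝ}

theorem step (h : Rsv D A J) (hB : Chain A B) (k : ℕ) {t : ℝ} (ht : 0 < t) (htk : t ≤ 1 / ((k : ℝ) + 1))
    (w : H) : B k (J t w : H) (J t w : H) ≤
      (1 + 9 / ((k : ℝ) + 3) / (2 * t * ((k : ℝ) + 1) ^ 2)) * B (k + 1) w w := by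
  have hk1 : (0 : ℝ) < (k : ℝ) + 1 := by positivity
  set z : D := J t w with hz
  have hw : w = (z : H) + t • A z := (h.res t ht w).symm
  have hs := hB.symm (k + 1)
  refine step_real (Fz := B (k + 1) (z : H) z) (FA := B (k + 1) (A z) (A z)) (P := B (k + 1) (A z) z)
    (X := Xf B k z z) (K := Kf A (B (k + 1)) (Xf B k) z z) (hB.nonneg _ _) (hB.nonneg _ _) (hB.Kpos _ _)
    (by positivity) ht hk1 htk (hB.nonneg _ _) ?_ ?_ ?_ ?_
  · unfold Kf
    rw [hs (z : H) (A z)]; ring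
  · have h1 := hB.cs k z z
    have h2 : B (k + 1) (A z) z - Kf A (B (k + 1)) (Xf B k) z z = - (Xf B k z z) / 2 := by
      unfold Kf
      rw [hs (z : H) (A z)]; ring
    rw [h2] at h1
    nlinarith
  · unfold Xf
    simp only [smul_apply, sub_apply, smul_eq_mul]
    field_simp
    ring
  · rw [hw]
    simp only [map_add, map_smul, add_apply, smul_apply, smul_eq_mul]
    rw [hs (z : H) (A z)]; ring

/-- fourth root -/
noncomputable def fr (k : ℕ) : ℝ := Real.sqrt (Real.sqrt k)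

theorem fr_sq (k : ℕ) : fr k ^ 2 = Real.sqrt k := Real.sq_sqrt (Real.sqrt_nonneg _)

theorem fr_four (k : ℕ) : fr k ^ 4 = k := by
  have : fr k ^ 4 = (fr k ^ 2) ^ 2 := by ring
  rw [this, fr_sq, Real.sq_sqrt (Nat.cast_nonneg k)]

theorem fr_nonneg (k : ℕ) : 0 ≤ fr k := Real.sqrt_nonneg _

theorem fr_mono {k l : ℕ} (h : k ≤ l) : fr k ≤ fr l := by
  unfold fr
  exact Real.sqrt_le_sqrt (Real.sqrt_le_sqrt (by exact_mod_cast h))

theorem fr_one_le {k : ℕ} (h : 1 ≤ k) : 1 ≤ fr k := by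
  have := fr_mono h
  have h1 : fr 1 = 1 := by unfold fr; simp
  linarith

theorem fr_tele {k : ℕ} (hk : 1 ≤ k) : 1 / fr (k + 1) ^ 5 ≤ 4 * (1 / fr k - 1 / fr (k + 1)) := by
  have h1 := fr_one_le hk
  have h2 := fr_mono (Nat.le_succ k)
  have h3 := fr_four k
  have h4 := fr_four (k + 1)
  set a := fr k
  set b := fr (k + 1)
  have ha : 0 < a := by linarith
  have hb : 0 < b := by linarith
  have h5 : b ^ 4 - a ^ 4 = 1 := by rw [h3, h4]; push_cast; ring
  have h6 : 1 ≤ 4 * b ^ 3 * (b - a) := by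
    have h7 : b ^ 4 - a ^ 4 = (b - a) * (b ^ 3 + b ^ 2 * a + b * a ^ 2 + a ^ 3) := by ring
    rw [h7] at h5
    have h8 : b ^ 3 + b ^ 2 * a + b * a ^ 2 + a ^ 3 ≤ 4 * b ^ 3 := by
      have e1 : b ^ 2 * a ≤ b ^ 3 := by nlinarith [pow_pos hb 2]
      have e2 : b * a ^ 2 ≤ b ^ 3 := by nlinarith [pow_pos hb 2, pow_pos ha 2, mul_pos ha hb]
      have e3 : a ^ 3 ≤ b ^ 3 := pow_le_pow_left₀ ha.le h2 3
      linarith
    have h9 : 0 ≤ b - a := by linarith
    nlinarith [mul_le_mul_of_nonneg_left h8 h9]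
  have h10 : 4 * (1 / a - 1 / b) = (4 * (b - a)) / (a * b) := by field_simp
  rw [h10, div_le_div_iff₀ (by positivity) (by positivity)]
  have h11 : a * b ≤ b ^ 2 := by nlinarith
  calc 1 * (a * b) ≤ b ^ 2 := by linarith
    _ ≤ b ^ 2 * (4 * b ^ 3 * (b - a)) := le_mul_of_one_le_right (by positivity) h6
    _ = 4 * (b - a) * b ^ 5 := by ring

theorem Chain.mono_one (hB : Chain A B) {k : ℕ} (hk : 1 ≤ k) (x : H) :
    B 1 x x ≤ (((k : ℝ) + 1) / 2) * B k x x := by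
  induction k, hk using Nat.le_induction with
  | base => norm_num
  | succ k hk ih =>
    refine ih.trans ?_
    have h1 := hB.mono k x
    have h2 : (0 : ℝ) ≤ ((k : ℝ) + 1) / 2 := by positivity
    calc ((k : ℝ) + 1) / 2 * B k x x ≤ ((k : ℝ) + 1) / 2 * (((k : ℝ) + 2) / ((k : ℝ) + 1) * B (k + 1) x x) :=
          mul_le_mul_of_nonneg_left h1 h2
      _ = _ := by
          have : (k : ℝ) + 1 ≠ 0 := by positivity
          push_cast
          field_simp
          ring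

/-- splitting of the resolvent -/
theorem Rsv.split (h : Rsv D A J) {s t : ℝ} (hs : 0 < s) (ht : 0 < t) (q : H) :
    ((J t q : D) : H) = (s / t) • ((J s q : D) : H) + (1 - s / t) • ((J s (J t q : H) : D) : H) := by
  have h1 : J s ((s / t) • q + (1 - s / t) • (J t q : H)) = J t q := by
    refine h.J_eq hs ?_
    have h2 := h.tAJ ht q
    have h3 : s • A (J t q) = (s / t) • (q - (J t q : H)) := by
      rw [← h2, smul_smul, div_mul_cancel₀ _ ht.ne']
    rw [h3]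
    module
  nth_rw 1 [← h1]
  simp

theorem bprime_aux (h : Rsv D A J) (hB : Chain A B) {t : ℝ} (ht : 0 < t) (ht1 : t ≤ 1) {k0 : ℕ}
    (hk0 : 1 ≤ k0) (hk0t : 1 / t ≤ k0) (K : ℕ) (hK : k0 ≤ K) : ∀ q : H,
    sn (B 1) (J t q : H) ≤
      Real.exp 9 * (4 * fr k0 ^ 3 * (1 / fr k0 - 1 / fr K)) *
        Real.sqrt (Real.exp (-(18 / (t * fr k0 ^ 3) / fr K)) * B K q q) +
      Real.exp 9 * fr k0 ^ 2 *
        Real.sqrt (Real.exp (-(18 / (t * fr k0 ^ 3) / fr K)) * B K (J t q : H) (J t q : H)) := by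
  have ha0 : 1 ≤ fr k0 := fr_one_le hk0
  have ha0p : 0 < fr k0 := by linarith
  have ha04 : fr k0 ^ 4 = k0 := fr_four k0
  have hc0 : 0 ≤ 18 / (t * fr k0 ^ 3) := by positivity
  set c := 18 / (t * fr k0 ^ 3) with hc
  have hcb : ∀ k, k0 ≤ k → c / fr k ≤ 18 := by
    intro k hk
    have h1 := fr_mono hk
    have h2 : 0 < fr k := by linarith
    calc c / fr k ≤ c / fr k0 := by gcongr
      _ = 18 / (t * fr k0 ^ 4) := by rw [hc]; field_simp
      _ ≤ 18 := by
        rw [ha04, div_le_iff₀ (by positivity)]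
        have : 1 ≤ t * k0 := by
          rw [div_le_iff₀ ht] at hk0t; linarith
        linarith
  -- comparing the seminorm of `B 1` with that of `B k`
  have hsn : ∀ k, k0 ≤ k → ∀ x : H, sn (B 1) x ≤
      Real.exp 9 * fr k ^ 2 * Real.sqrt (Real.exp (-(c / fr k)) * B k x x) := by
    intro k hk x
    have hk1 : 1 ≤ k := hk0.trans hk
    have h1 := hB.mono_one hk1 x
    have h2 : B 1 x x ≤ (Real.exp 9 * fr k ^ 2) ^ 2 * (Real.exp (-(c / fr k)) * B k x x) := by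
      have h3 : (Real.exp 9 * fr k ^ 2) ^ 2 = Real.exp 18 * k := by
        rw [mul_pow, ← Real.exp_nat_mul, ← pow_mul, show (2 * 2 : ℕ) = 4 from rfl, fr_four]
        norm_num
      have h4 : (1 : ℝ) ≤ Real.exp 18 * Real.exp (-(c / fr k)) := by
        rw [← Real.exp_add]
        exact Real.one_le_exp (by linarith [hcb k hk])
      have h5 : (((k : ℝ) + 1) / 2) ≤ k := by
        have : (1 : ℝ) ≤ k := by exact_mod_cast hk1
        linarith
      have h6 := hB.nonneg k x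
      calc B 1 x x ≤ (((k : ℝ) + 1) / 2) * B k x x := h1
        _ ≤ k * B k x x := mul_le_mul_of_nonneg_right h5 h6
        _ ≤ (Real.exp 18 * Real.exp (-(c / fr k))) * (k * B k x x) :=
            le_mul_of_one_le_left (mul_nonneg (Nat.cast_nonneg k) h6) h4
        _ = _ := by rw [h3]; ring
    unfold sn
    calc Real.sqrt (B 1 x x) ≤ Real.sqrt ((Real.exp 9 * fr k ^ 2) ^ 2 * (Real.exp (-(c / fr k)) * B k x x)) :=
          Real.sqrt_le_sqrt h2
      _ = _ := by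
          rw [Real.sqrt_mul (sq_nonneg _), Real.sqrt_sq (by positivity)]
  induction K, hK using Nat.le_induction with
  | base =>
    intro q
    have h1 := hsn k0 le_rfl (J t q : H)
    have h2 : Real.exp 9 * (4 * fr k0 ^ 3 * (1 / fr k0 - 1 / fr k0)) *
        Real.sqrt (Real.exp (-(c / fr k0)) * B k0 q q) = 0 := by rw [sub_self]; ring
    rw [h2, zero_add]
    exact h1
  | succ K hK ih =>
    intro q
    have hK1 : 1 ≤ K := hk0.trans hK
    set a := fr K with ha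
    set b := fr (K + 1) with hb
    have haa : fr k0 ≤ a := fr_mono hK
    have hab : a ≤ b := fr_mono (Nat.le_succ K)
    have hap : 0 < a := by linarith
    have hbp : 0 < b := by linarith
    have hb4 : b ^ 4 = (K : ℝ) + 1 := by rw [hb, fr_four]; push_cast; ring
    -- the step size
    set s := t * fr k0 ^ 3 / b ^ 7 with hs
    have hsp : 0 < s := by positivity
    have hab3 : fr k0 ^ 3 ≤ b ^ 3 := pow_le_pow_left₀ ha0p.le (by linarith) 3
    have hs1 : s ≤ 1 / ((K : ℝ) + 1) := by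
      rw [← hb4, hs, div_le_div_iff₀ (by positivity) (by positivity)]
      have h1 : t * fr k0 ^ 3 ≤ b ^ 3 := by
        calc t * fr k0 ^ 3 ≤ 1 * b ^ 3 := by gcongr
          _ = b ^ 3 := one_mul _
      calc t * fr k0 ^ 3 * b ^ 4 ≤ b ^ 3 * b ^ 4 := by gcongr
        _ = 1 * b ^ 7 := by ring
    have hst : s / t = fr k0 ^ 3 / b ^ 7 := by rw [hs]; field_simp
    have hst0 : 0 ≤ s / t := by positivity
    have hst1 : s / t ≤ 1 := by
      rw [hst, div_le_one (by positivity)]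
      have h1 : 1 ≤ b := by linarith
      calc fr k0 ^ 3 ≤ b ^ 3 := hab3
        _ ≤ b ^ 7 := pow_le_pow_right₀ h1 (by norm_num)
    -- the step inequality
    have hstep : ∀ x : H, Real.exp (-(c / a)) * B K (J s x : H) (J s x : H) ≤
        Real.exp (-(c / b)) * B (K + 1) x x := by
      intro x
      have h1 := step h hB K hsp hs1 x
      have h2 : 1 + 9 / ((K : ℝ) + 3) / (2 * s * ((K : ℝ) + 1) ^ 2) ≤ Real.exp (c / a - c / b) := by
        have h3 : 9 / ((K : ℝ) + 3) / (2 * s * ((K : ℝ) + 1) ^ 2) ≤ c / a - c / b := by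
          have h4 := fr_tele hK1
          rw [← ha, ← hb] at h4
          have h5 : c / a - c / b = c * (1 / a - 1 / b) := by ring
          have h6 : c * (1 / b ^ 5) ≤ c * (4 * (1 / a - 1 / b)) := mul_le_mul_of_nonneg_left h4 hc0
          have h7 : 9 / ((K : ℝ) + 3) / (2 * s * ((K : ℝ) + 1) ^ 2) ≤ 9 / (b ^ 4) / (2 * s * (b ^ 4) ^ 2) := by
            rw [hb4]
            gcongr
            linarith
          have h8 : 9 / (b ^ 4) / (2 * s * (b ^ 4) ^ 2) = c * (1 / b ^ 5) / 4 := by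
            rw [hs, hc]; field_simp; norm_num
          rw [h5]
          linarith
        calc 1 + 9 / ((K : ℝ) + 3) / (2 * s * ((K : ℝ) + 1) ^ 2) ≤ (c / a - c / b) + 1 := by linarith
          _ ≤ Real.exp (c / a - c / b) := Real.add_one_le_exp _
      have h9 := hB.nonneg (K + 1) x
      calc Real.exp (-(c / a)) * B K (J s x : H) (J s x : H)
          ≤ Real.exp (-(c / a)) * (Real.exp (c / a - c / b) * B (K + 1) x x) := by
            gcongr
            exact h1.trans (mul_le_mul_of_nonneg_right h2 h9)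
        _ = (Real.exp (-(c / a)) * Real.exp (c / a - c / b)) * B (K + 1) x x := by ring
        _ = _ := by
            rw [← Real.exp_add]
            congr 2
            ring
    have hP : ∀ x : H, Real.sqrt (Real.exp (-(c / a)) * B K (J s x : H) (J s x : H)) ≤
        Real.sqrt (Real.exp (-(c / b)) * B (K + 1) x x) := fun x => Real.sqrt_le_sqrt (hstep x)
    have h1 : sn (B 1) (J t q : H) ≤ (s / t) * sn (B 1) (J s q : H) + sn (B 1) (J s (J t q : H) : H) := by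
      have e1 : ((J t q : D) : H) = (s / t) • ((J s q : D) : H) + (1 - s / t) • ((J s (J t q : H) : D) : H) :=
        h.split hsp ht q
      have e2 : sn (B 1) (J t q : H) = sn (B 1) ((s / t) • ((J s q : D) : H) +
          (1 - s / t) • ((J s (J t q : H) : D) : H)) := by rw [← e1]
      rw [e2]
      refine (sn_add _ (hB.symm 1) (hB.nonneg 1) _ _).trans ?_
      rw [sn_smul _ hst0, sn_smul _ (by linarith : (0 : ℝ) ≤ 1 - s / t)]
      have := sn_nonneg (B 1) ((J s (J t q : H) : D) : H)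
      nlinarith
    have h2 : (s / t) * sn (B 1) (J s q : H) ≤
        Real.exp 9 * (4 * fr k0 ^ 3 * (1 / a - 1 / b)) * Real.sqrt (Real.exp (-(c / b)) * B (K + 1) q q) := by
      have e1 := hsn K hK (J s q : H)
      rw [← ha] at e1
      have e2 : sn (B 1) (J s q : H) ≤ Real.exp 9 * b ^ 2 * Real.sqrt (Real.exp (-(c / b)) * B (K + 1) q q) := by
        refine e1.trans ?_
        have : a ^ 2 ≤ b ^ 2 := pow_le_pow_left₀ hap.le hab 2
        have hPq := hP q
        gcongr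
      have e3 : (s / t) * b ^ 2 ≤ 4 * fr k0 ^ 3 * (1 / a - 1 / b) := by
        have h4 := fr_tele hK1
        rw [← ha, ← hb] at h4
        have h5 : (s / t) * b ^ 2 = fr k0 ^ 3 * (1 / b ^ 5) := by rw [hst]; field_simp
        rw [h5]
        calc fr k0 ^ 3 * (1 / b ^ 5) ≤ fr k0 ^ 3 * (4 * (1 / a - 1 / b)) := by gcongr
          _ = _ := by ring
      have e4 := Real.sqrt_nonneg (Real.exp (-(c / b)) * B (K + 1) q q)
      have e5 : 0 ≤ Real.exp 9 * Real.sqrt (Real.exp (-(c / b)) * B (K + 1) q q) :=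
        mul_nonneg (Real.exp_pos _).le e4
      calc (s / t) * sn (B 1) (J s q : H)
          ≤ (s / t) * (Real.exp 9 * b ^ 2 * Real.sqrt (Real.exp (-(c / b)) * B (K + 1) q q)) :=
            mul_le_mul_of_nonneg_left e2 hst0
        _ = ((s / t) * b ^ 2) * (Real.exp 9 * Real.sqrt (Real.exp (-(c / b)) * B (K + 1) q q)) := by ring
        _ ≤ (4 * fr k0 ^ 3 * (1 / a - 1 / b)) * (Real.exp 9 * Real.sqrt (Real.exp (-(c / b)) * B (K + 1) q q)) :=
            mul_le_mul_of_nonneg_right e3 e5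
        _ = _ := by ring
    have h3 := ih (J s q : H)
    rw [← h.comm hsp ht q] at h3
    have h4 : (0 : ℝ) ≤ Real.exp 9 * (4 * fr k0 ^ 3 * (1 / fr k0 - 1 / a)) := by
      have : 1 / a ≤ 1 / fr k0 := one_div_le_one_div_of_le ha0p haa
      have h5 : 0 ≤ 1 / fr k0 - 1 / a := by linarith
      positivity
    have h5 : (0 : ℝ) ≤ Real.exp 9 * fr k0 ^ 2 := by positivity
    have h6 := mul_le_mul_of_nonneg_left (hP q) h4
    have h7 := mul_le_mul_of_nonneg_left (hP (J t q : H)) h5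
    have h8 : Real.exp 9 * (4 * fr k0 ^ 3 * (1 / fr k0 - 1 / b)) =
        Real.exp 9 * (4 * fr k0 ^ 3 * (1 / fr k0 - 1 / a)) + Real.exp 9 * (4 * fr k0 ^ 3 * (1 / a - 1 / b)) := by
      ring
    rw [h8, add_mul]
    linarith

/-- (B') for the resolvent -/
theorem bprime (h : Rsv D A J) (hB : Chain A B) {t : ℝ} (ht : 0 < t) (ht1 : t ≤ 1) (q : H) :
    B 1 (J t q : H) (J t q : H) ≤ (50 * Real.exp 18 / t) * ‖q‖ ^ 2 := by
  set k0 := ⌈1 / t⌉₊ with hk0d
  have h1t : 1 ≤ 1 / t := by rw [le_div_iff₀ ht]; linarith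
  have hk0t : 1 / t ≤ k0 := Nat.le_ceil _
  have hk0 : 1 ≤ k0 := by
    have : (1 : ℝ) ≤ k0 := h1t.trans hk0t
    exact_mod_cast this
  have hk02 : (k0 : ℝ) ≤ 2 / t := by
    have := (Nat.ceil_lt_add_one (by positivity : 0 ≤ 1 / t)).le
    have e : (2 : ℝ) / t = 1 / t + 1 / t := by ring
    rw [e]; linarith
  have ha0 : 1 ≤ fr k0 := fr_one_le hk0
  have ha0p : 0 < fr k0 := by linarith
  have key : ∀ K, k0 ≤ K → sn (B 1) (J t q : H) ≤ Real.exp 9 * (4 * fr k0 ^ 2) * Real.sqrt (B K q q) +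
      Real.exp 9 * fr k0 ^ 2 * Real.sqrt (B K (J t q : H) (J t q : H)) := by
    intro K hK
    refine (bprime_aux h hB ht ht1 hk0 hk0t K hK q).trans ?_
    have hap : 0 < fr K := lt_of_lt_of_le ha0p (fr_mono hK)
    have e1 : Real.exp (-(18 / (t * fr k0 ^ 3) / fr K)) ≤ 1 := by
      rw [Real.exp_le_one_iff]
      have : 0 ≤ 18 / (t * fr k0 ^ 3) / fr K := by positivity
      linarith
    have e2 : ∀ x : H, Real.sqrt (Real.exp (-(18 / (t * fr k0 ^ 3) / fr K)) * B K x x) ≤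
        Real.sqrt (B K x x) := by
      intro x
      refine Real.sqrt_le_sqrt ?_
      have := hB.nonneg K x
      nlinarith
    have e3 : 4 * fr k0 ^ 3 * (1 / fr k0 - 1 / fr K) ≤ 4 * fr k0 ^ 2 := by
      have : 0 ≤ 1 / fr K := by positivity
      calc 4 * fr k0 ^ 3 * (1 / fr k0 - 1 / fr K) ≤ 4 * fr k0 ^ 3 * (1 / fr k0) := by
            gcongr; linarith
        _ = 4 * fr k0 ^ 2 := by field_simp
    have e4 : 0 ≤ 1 / fr k0 - 1 / fr K := by
      have := one_div_le_one_div_of_le ha0p (fr_mono hK)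
      linarith
    have e5 := e2 q
    have e6 := e2 (J t q : H)
    gcongr
  have hl1 : Tendsto (fun K => Real.exp 9 * (4 * fr k0 ^ 2) * Real.sqrt (B K q q) +
      Real.exp 9 * fr k0 ^ 2 * Real.sqrt (B K (J t q : H) (J t q : H))) atTop
      (𝓝 (Real.exp 9 * (4 * fr k0 ^ 2) * Real.sqrt (‖q‖ ^ 2) +
      Real.exp 9 * fr k0 ^ 2 * Real.sqrt (‖(J t q : H)‖ ^ 2))) :=
    (((hB.lim q).sqrt).const_mul _).add (((hB.lim (J t q : H)).sqrt).const_mul _)
  have h1 := ge_of_tendsto hl1 (eventually_atTop.2 ⟨k0, key⟩)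
  rw [Real.sqrt_sq (norm_nonneg _), Real.sqrt_sq (norm_nonneg _)] at h1
  have h2 : sn (B 1) (J t q : H) ≤ 5 * (Real.exp 9 * fr k0 ^ 2) * ‖q‖ := by
    have h3 := h.norm_le ht q
    have h4 : 0 ≤ Real.exp 9 * fr k0 ^ 2 := by positivity
    have h5 := mul_le_mul_of_nonneg_left h3 h4
    nlinarith
  have h3 : B 1 (J t q : H) (J t q : H) ≤ (5 * (Real.exp 9 * fr k0 ^ 2) * ‖q‖) ^ 2 := by
    rw [← sn_sq (B 1) (hB.nonneg 1)]
    exact pow_le_pow_left₀ (sn_nonneg _ _) h2 2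
  refine h3.trans ?_
  have h4 : (5 * (Real.exp 9 * fr k0 ^ 2) * ‖q‖) ^ 2 = 25 * Real.exp 18 * k0 * ‖q‖ ^ 2 := by
    have e1 : Real.exp 9 ^ 2 = Real.exp 18 := by rw [← Real.exp_nat_mul]; norm_num
    have e2 : (fr k0 ^ 2) ^ 2 = k0 := by rw [← pow_mul]; exact fr_four k0
    calc (5 * (Real.exp 9 * fr k0 ^ 2) * ‖q‖) ^ 2 = 25 * (Real.exp 9 ^ 2) * ((fr k0 ^ 2) ^ 2) * ‖q‖ ^ 2 := by ring
      _ = _ := by rw [e1, e2]
  rw [h4]
  have h5 : 25 * Real.exp 18 * k0 ≤ 50 * Real.exp 18 / t := by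
    calc 25 * Real.exp 18 * k0 ≤ 25 * Real.exp 18 * (2 / t) := by gcongr
      _ = _ := by ring
  exact mul_le_mul_of_nonneg_right h5 (sq_nonneg _)

/-! ### derivatives of the powers of the resolvent -/

theorem Rsv.hd1 (h : Rsv D A J) {s : ℝ} (hs : 0 < s) (x : H) :
    HasDerivAt (fun t => ((J t x : D) : H)) (-((J s (A (J s x)) : D) : H)) s := by
  have h1 := h.hasDeriv hs (hasDerivAt_const s x)
  simpa using h1

theorem Rsv.hd2 (h : Rsv D A J) {s : ℝ} (hs : 0 < s) (x : H) :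
    HasDerivAt (fun t => ((J t (J t x : H) : D) : H)) (-(2 : ℝ) • ((J s (J s (A (J s x)) : H) : D) : H)) s := by
  have h1 := h.hasDeriv hs (h.hd1 hs x)
  have e : ((J s (-((J s (A (J s x)) : D) : H) - A (J s (J s x : H))) : D) : H) =
      -(2 : ℝ) • ((J s (J s (A (J s x)) : H) : D) : H) := by
    rw [h.A_J hs (J s x)]
    have : -((J s (A (J s x)) : D) : H) - ((J s (A (J s x)) : D) : H) = -(2 : ℝ) • ((J s (A (J s x)) : D) : H) := by
      module
    rw [this]; simp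
  rw [e] at h1
  exact h1

theorem Rsv.hd3 (h : Rsv D A J) {s : ℝ} (hs : 0 < s) (x : H) :
    HasDerivAt (fun t => ((J t (J t (J t x : H) : H) : D) : H))
      (-(3 : ℝ) • ((J s (J s (J s (A (J s x)) : H) : H) : D) : H)) s := by
  have h1 := h.hasDeriv hs (h.hd2 hs x)
  have e : ((J s (-(2 : ℝ) • ((J s (J s (A (J s x)) : H) : D) : H) - A (J s (J s (J s x : H) : H))) : D) : H) =
      -(3 : ℝ) • ((J s (J s (J s (A (J s x)) : H) : H) : D) : H) := by
    rw [h.A_J hs (J s (J s x : H)), h.A_J hs (J s x)]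
    have : -(2 : ℝ) • ((J s (J s (A (J s x)) : H) : D) : H) - ((J s (J s (A (J s x)) : H) : D) : H) =
        -(3 : ℝ) • ((J s (J s (A (J s x)) : H) : D) : H) := by
      module
    rw [this]; simp
  rw [e] at h1
  exact h1

theorem hd_form (F : H →L[ℝ] H →L[ℝ] ℝ) {u v : ℝ → H} {u' v' : H} {s : ℝ} (hu : HasDerivAt u u' s)
    (hv : HasDerivAt v v' s) : HasDerivAt (fun t => F (u t) (v t)) (F u' (v s) + F (u s) v') s := by
  have h1 : HasDerivAt (fun t => F (u t)) (F u') s := F.hasFDerivAt.comp_hasDerivAt s hu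
  exact h1.clm_apply hv

theorem tendsto_form (F : H →L[ℝ] H →L[ℝ] ℝ) {ι : Type*} {l : Filter ι} {u v : ι → H} {x y : H}
    (hu : Tendsto u l (𝓝 x)) (hv : Tendsto v l (𝓝 y)) : Tendsto (fun i => F (u i) (v i)) l (𝓝 (F x y)) :=
  (F.continuous₂.tendsto (x, y)).comp (hu.prodMk_nhds hv)

theorem le_of_hd {f f' : ℝ → ℝ} (hf : ∀ s, 0 < s → HasDerivAt f (f' s) s)
    (h0 : ∀ s, 0 < s → s ≤ 1 → 0 ≤ f' s) {δ : ℝ} (hδ : 0 < δ) (hδ1 : δ ≤ 1) : f δ ≤ f 1 := by
  have hm : MonotoneOn f (Icc δ 1) := by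
    refine monotoneOn_of_deriv_nonneg (convex_Icc δ 1) ?_ ?_ ?_
    · exact fun s hs => (hf s (hδ.trans_le hs.1)).continuousAt.continuousWithinAt
    · rw [interior_Icc]
      exact fun s hs => (hf s (hδ.trans hs.1)).differentiableAt.differentiableWithinAt
    · rw [interior_Icc]
      intro s hs
      rw [(hf s (hδ.trans hs.1)).deriv]
      exact h0 s (hδ.trans hs.1) hs.2.le
  exact hm ⟨le_rfl, hδ1⟩ ⟨hδ1, le_rfl⟩ hδ1

/-- the data at level one -/
structure One (A : D →ₗ[ℝ] H) (J : ℝ → H →ₗ[ℝ] D) (F X : H →L[ℝ] H →L[ℝ] ℝ) (a : ℝ) : Prop where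
  Fs : ∀ x y, F x y = F y x
  Xs : ∀ x y, X x y = X y x
  F0 : ∀ x, 0 ≤ F x x
  K0 : ∀ z, 0 ≤ Kf A F X z z
  cs : ∀ z e : D, (F (A z) e - Kf A F X z e) ^ 2 ≤ 3 * Kf A F X z z * F (e : H) e
  ha : 0 ≤ a
  bp : ∀ t : ℝ, 0 < t → t ≤ 1 → ∀ q : H, F (J t q : H) (J t q : H) ≤ a / t * ‖q‖ ^ 2

variable {F X : H →L[ℝ] H →L[ℝ] ℝ} {a : ℝ}

theorem Kf_add (hO : One A J F X a) (c : ℝ) (z e : D) :
    Kf A F X (z + c • e) (z + c • e) = Kf A F X z z + 2 * c * Kf A F X z e + c ^ 2 * Kf A F X e e := by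
  unfold Kf
  simp only [map_add, map_smul, add_apply, smul_apply, smul_eq_mul, Submodule.coe_add, Submodule.coe_smul]
  rw [hO.Fs (e : H) (A z), hO.Fs (e : H) (A e), hO.Fs (A e) (z : H), hO.Xs (e : H) (z : H),
    hO.Fs (z : H) (A z)]
  ring

theorem F_add (hO : One A J F X a) (c : ℝ) (x y : H) :
    F (x + c • y) (x + c • y) = F x x + 2 * c * F x y + c ^ 2 * F y y := by
  simp only [map_add, map_smul, add_apply, smul_apply, smul_eq_mul]
  rw [hO.Fs y x]; ring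

theorem K_abs (hO : One A J F X a) (z e : D) :
    |F (A z) e - Kf A F X z e| ≤ Kf A F X z z + 3 / 4 * F (e : H) e := by
  have h1 := hO.cs z e
  have h2 := hO.K0 z
  have h3 := hO.F0 (e : H)
  refine abs_le_of_sq_le_sq ?_ (by positivity)
  nlinarith [sq_nonneg (Kf A F X z z - 3 / 4 * F (e : H) e)]

theorem K_le (hO : One A J F X a) (z : D) :
    Kf A F X z z ≤ 2 * F (A z) z + 3 * F (z : H) z := by
  have h1 := hO.cs z z
  have h2 := hO.K0 z
  have h3 := hO.F0 (z : H)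
  have h4 : |2 * (F (A z) z - Kf A F X z z)| ≤ Kf A F X z z + 3 * F (z : H) z := by
    refine abs_le_of_sq_le_sq ?_ (by positivity)
    nlinarith [sq_nonneg (Kf A F X z z - 3 * F (z : H) z)]
  have := (abs_le.1 h4).1
  linarith

theorem Rsv.sq_le (h : Rsv D A J) {t : ℝ} (ht : 0 < t) (q : H) : ‖(J t q : H)‖ ^ 2 ≤ ‖q‖ ^ 2 :=
  pow_le_pow_left₀ (norm_nonneg _) (h.norm_le ht q) 2

theorem FA_le (h : Rsv D A J) (hO : One A J F X a) {t : ℝ} (ht : 0 < t) (ht1 : t ≤ 1) (q : H) :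
    t * F (A (J t (J t q : H))) (A (J t (J t q : H))) ≤ a * ‖A (J t q)‖ ^ 2 := by
  rw [h.A_J ht (J t q)]
  have h1 := hO.bp t ht ht1 (A (J t q))
  calc t * F (J t (A (J t q)) : H) (J t (A (J t q)) : H) ≤ t * (a / t * ‖A (J t q)‖ ^ 2) :=
        mul_le_mul_of_nonneg_left h1 ht.le
    _ = _ := by field_simp

theorem Rsv.AJ_le (h : Rsv D A J) {t : ℝ} (ht : 0 < t) (q : H) : t ^ 2 * ‖A (J t q)‖ ^ 2 ≤ ‖q‖ ^ 2 := by
  have h1 : t * ‖A (J t q)‖ = ‖q - (J t q : H)‖ := by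
    rw [← h.tAJ ht, norm_smul, Real.norm_eq_abs, abs_of_pos ht]
  rw [← mul_pow, h1]
  exact pow_le_pow_left₀ (norm_nonneg _) (h.norm_sub_le ht q) 2

/-- (3): `K(J_t² q) ≤ 5 a t⁻² |q|²` -/
theorem K_JJ (h : Rsv D A J) (hO : One A J F X a) {t : ℝ} (ht : 0 < t) (ht1 : t ≤ 1) (q : H) :
    t ^ 2 * Kf A F X (J t (J t q : H)) (J t (J t q : H)) ≤ 5 * a * ‖q‖ ^ 2 := by
  have h1 := K_le hO (J t (J t q : H))
  have ha := hO.ha
  have hz : t * F (J t (J t q : H) : H) (J t (J t q : H) : H) ≤ a * ‖q‖ ^ 2 := by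
    have h2 := hO.bp t ht ht1 (J t q : H)
    have h3 := h.sq_le ht q
    calc t * F (J t (J t q : H) : H) (J t (J t q : H) : H) ≤ t * (a / t * ‖(J t q : H)‖ ^ 2) :=
          mul_le_mul_of_nonneg_left h2 ht.le
      _ = a * ‖(J t q : H)‖ ^ 2 := by field_simp
      _ ≤ _ := mul_le_mul_of_nonneg_left h3 ha
  have hA : t ^ 3 * F (A (J t (J t q : H))) (A (J t (J t q : H))) ≤ a * ‖q‖ ^ 2 := by
    have h2 := FA_le h hO ht ht1 q
    have h3 := h.AJ_le ht q
    calc t ^ 3 * F (A (J t (J t q : H))) (A (J t (J t q : H)))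
        = t ^ 2 * (t * F (A (J t (J t q : H))) (A (J t (J t q : H)))) := by ring
      _ ≤ t ^ 2 * (a * ‖A (J t q)‖ ^ 2) := mul_le_mul_of_nonneg_left h2 (by positivity)
      _ = a * (t ^ 2 * ‖A (J t q)‖ ^ 2) := by ring
      _ ≤ _ := mul_le_mul_of_nonneg_left h3 ha
  set z : D := J t (J t q : H) with hzd
  have h5 := hO.F0 ((z : H) + (-t) • A z)
  rw [F_add hO, hO.Fs (z : H) (A z)] at h5
  have h6 : 2 * (t ^ 2 * F (A z) z) ≤ 2 * (a * ‖q‖ ^ 2) := by nlinarith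
  have h7 : t ^ 2 * F (z : H) z ≤ a * ‖q‖ ^ 2 := by
    have h8 : 0 ≤ t * F (z : H) z := mul_nonneg ht.le (hO.F0 (z : H))
    calc t ^ 2 * F (z : H) z = t * (t * F (z : H) z) := by ring
      _ ≤ 1 * (t * F (z : H) z) := mul_le_mul_of_nonneg_right ht1 h8
      _ ≤ _ := by rw [one_mul]; exact hz
  have h9 := mul_le_mul_of_nonneg_left h1 (by positivity : (0 : ℝ) ≤ t ^ 2)
  linarith

/-- (4) the inequality `F(ω) ≤ C a (⟨A ω, ω⟩ + |ω|²)` -/
theorem star (h : Rsv D A J) (hO : One A J F X a) (ω : D) :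
    F (ω : H) ω ≤ 776 * a * inner ℝ (A ω) (ω : H) + 87 * a * ‖(ω : H)‖ ^ 2 := by
  have ha := hO.ha
  -- the monotone function
  have hd : ∀ s : ℝ, 0 < s → HasDerivAt (fun t : ℝ =>
      F (J t (J t (ω : H) : H) : H) (J t (J t (ω : H) : H) : H)
      + 16 * (t * (F (J t (J t (J t (ω : H) : H) : H) : H) (J t (J t (J t (A ω) : H) : H) : H)
          + X (J t (J t (J t (ω : H) : H) : H) : H) (J t (J t (J t (ω : H) : H) : H) : H) / 2))
      + 6 * (t * F (J t (J t (J t (ω : H) : H) : H) : H) (J t (J t (J t (ω : H) : H) : H) : H))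
      - 776 * a * inner ℝ (J t (A ω) : H) (J t (ω : H) : H))
      ((F (-(2 : ℝ) • ((J s (J s (A (J s (ω : H))) : H) : D) : H)) (J s (J s (ω : H) : H) : H)
          + F (J s (J s (ω : H) : H) : H) (-(2 : ℝ) • ((J s (J s (A (J s (ω : H))) : H) : D) : H)))
      + 16 * (1 * (F (J s (J s (J s (ω : H) : H) : H) : H) (J s (J s (J s (A ω) : H) : H) : H)
          + X (J s (J s (J s (ω : H) : H) : H) : H) (J s (J s (J s (ω : H) : H) : H) : H) / 2)
        + s * ((F (-(3 : ℝ) • ((J s (J s (J s (A (J s (ω : H))) : H) : H) : D) : H)) (J s (J s (J s (A ω) : H) : H) : H)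
            + F (J s (J s (J s (ω : H) : H) : H) : H) (-(3 : ℝ) • ((J s (J s (J s (A (J s (A ω))) : H) : H) : D) : H)))
          + (X (-(3 : ℝ) • ((J s (J s (J s (A (J s (ω : H))) : H) : H) : D) : H)) (J s (J s (J s (ω : H) : H) : H) : H)
            + X (J s (J s (J s (ω : H) : H) : H) : H) (-(3 : ℝ) • ((J s (J s (J s (A (J s (ω : H))) : H) : H) : D) : H))) / 2))
      + 6 * (1 * F (J s (J s (J s (ω : H) : H) : H) : H) (J s (J s (J s (ω : H) : H) : H) : H)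
        + s * (F (-(3 : ℝ) • ((J s (J s (J s (A (J s (ω : H))) : H) : H) : D) : H)) (J s (J s (J s (ω : H) : H) : H) : H)
            + F (J s (J s (J s (ω : H) : H) : H) : H) (-(3 : ℝ) • ((J s (J s (J s (A (J s (ω : H))) : H) : H) : D) : H))))
      - 776 * a * (inner ℝ (J s (A ω) : H) (-((J s (A (J s (ω : H))) : D) : H))
          + inner ℝ (-((J s (A (J s (A ω))) : D) : H)) (J s (ω : H) : H))) s := by
    intro s hs
    have w2 := h.hd2 hs (ω : H)
    have w3 := h.hd3 hs (ω : H)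
    have x3 := h.hd3 hs (A ω)
    have w1 := h.hd1 hs (ω : H)
    have x1 := h.hd1 hs (A ω)
    exact ((((hd_form F w2 w2).add (((hasDerivAt_id s).mul ((hd_form F w3 x3).add
      ((hd_form X w3 w3).div_const 2))).const_mul 16)).add
      (((hasDerivAt_id s).mul (hd_form F w3 w3)).const_mul 6)).sub
      ((x1.inner ℝ w1).const_mul (776 * a)))
  have hnn : ∀ s : ℝ, 0 < s → s ≤ 1 → 0 ≤
      ((F (-(2 : ℝ) • ((J s (J s (A (J s (ω : H))) : H) : D) : H)) (J s (J s (ω : H) : H) : H)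
          + F (J s (J s (ω : H) : H) : H) (-(2 : ℝ) • ((J s (J s (A (J s (ω : H))) : H) : D) : H)))
      + 16 * (1 * (F (J s (J s (J s (ω : H) : H) : H) : H) (J s (J s (J s (A ω) : H) : H) : H)
          + X (J s (J s (J s (ω : H) : H) : H) : H) (J s (J s (J s (ω : H) : H) : H) : H) / 2)
        + s * ((F (-(3 : ℝ) • ((J s (J s (J s (A (J s (ω : H))) : H) : H) : D) : H)) (J s (J s (J s (A ω) : H) : H) : H)
            + F (J s (J s (J s (ω : H) : H) : H) : H) (-(3 : ℝ) • ((J s (J s (J s (A (J s (A ω))) : H) : H) : D) : H)))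
          + (X (-(3 : ℝ) • ((J s (J s (J s (A (J s (ω : H))) : H) : H) : D) : H)) (J s (J s (J s (ω : H) : H) : H) : H)
            + X (J s (J s (J s (ω : H) : H) : H) : H) (-(3 : ℝ) • ((J s (J s (J s (A (J s (ω : H))) : H) : H) : D) : H))) / 2))
      + 6 * (1 * F (J s (J s (J s (ω : H) : H) : H) : H) (J s (J s (J s (ω : H) : H) : H) : H)
        + s * (F (-(3 : ℝ) • ((J s (J s (J s (A (J s (ω : H))) : H) : H) : D) : H)) (J s (J s (J s (ω : H) : H) : H) : H)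
            + F (J s (J s (J s (ω : H) : H) : H) : H) (-(3 : ℝ) • ((J s (J s (J s (A (J s (ω : H))) : H) : H) : D) : H))))
      - 776 * a * (inner ℝ (J s (A ω) : H) (-((J s (A (J s (ω : H))) : D) : H))
          + inner ℝ (-((J s (A (J s (A ω))) : D) : H)) (J s (ω : H) : H))) := by
    intro s hs hs1
    have eA : A (J s (ω : H)) = ((J s (A ω) : D) : H) := h.A_J hs ω
    rw [eA]
    set p : D := J s (J s (A ω) : H) with hp
    set Z : D := J s (J s (J s (ω : H) : H) : H) with hZ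
    have eAZ : A Z = ((J s (p : H) : D) : H) := by
      rw [hZ, h.A_J hs (J s (J s (ω : H) : H)), h.A_J hs (J s (ω : H)), eA]
    have eW : ((J s (J s (ω : H) : H) : D) : H) = (Z : H) + s • A Z := (h.res s hs _).symm
    rw [eW]
    set ζ : D := J s (J s (p : H) : H) with hζ
    have eAζ : A ζ = ((J s (J s (J s (A (J s (A ω))) : H) : H) : D) : H) := by
      rw [hζ, h.A_J hs (J s (p : H)), h.A_J hs p, hp, h.A_J hs (J s (A ω))]
    rw [← eAζ, ← eAZ]
    have hin : inner ℝ ((J s (A ω) : D) : H) (-(p : H)) +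
        inner ℝ (-((J s (A (J s (A ω))) : D) : H)) ((J s (ω : H) : D) : H) =
        -2 * inner ℝ ((J s (J s (A ω) : H) : D) : H) ((J s (A ω) : D) : H) := by
      rw [inner_neg_right, inner_neg_left, h.J_sym hs (A (J s (A ω))), h.sym,
        h.A_J hs (J s (ω : H)), eA, ← hp, real_inner_comm (p : H)]
      ring
    have hin2 : ‖(p : H)‖ ^ 2 ≤ inner ℝ ((J s (J s (A ω) : H) : D) : H) ((J s (A ω) : D) : H) :=
      h.norm_sq_le hs _
    rw [hin]
    have k1 := (abs_le.1 (K_abs hO Z Z)).2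
    have k2 : s * F (A Z) (A Z) ≤ a * ‖(p : H)‖ ^ 2 := by
      have := FA_le h hO hs hs1 (J s (ω : H) : H)
      rw [h.A_J hs (J s (ω : H)), eA] at this
      exact this
    have k3 := hO.K0 (Z + (-(6 * s)) • ζ)
    rw [Kf_add hO] at k3
    have k4 : s ^ 2 * Kf A F X ζ ζ ≤ 5 * a * ‖(p : H)‖ ^ 2 := K_JJ h hO hs hs1 (p : H)
    have k5 := hO.F0 ((Z : H) + (-(6 * s)) • (ζ : H))
    rw [F_add hO] at k5
    have k6 : s ^ 2 * F (ζ : H) ζ ≤ a * ‖(p : H)‖ ^ 2 := by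
      have h1 := hO.bp s hs hs1 (J s (p : H) : H)
      have h2 := h.sq_le hs (p : H)
      have h3 : s * F (ζ : H) ζ ≤ a * ‖(p : H)‖ ^ 2 := by
        calc s * F (ζ : H) ζ ≤ s * (a / s * ‖((J s (p : H) : D) : H)‖ ^ 2) :=
              mul_le_mul_of_nonneg_left h1 hs.le
          _ = a * ‖((J s (p : H) : D) : H)‖ ^ 2 := by field_simp
          _ ≤ _ := mul_le_mul_of_nonneg_left h2 ha
      have h4 : 0 ≤ s * F (ζ : H) ζ := mul_nonneg hs.le (hO.F0 _)
      calc s ^ 2 * F (ζ : H) ζ = s * (s * F (ζ : H) ζ) := by ring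
        _ ≤ 1 * (s * F (ζ : H) ζ) := mul_le_mul_of_nonneg_right hs1 h4
        _ ≤ _ := by rw [one_mul]; exact h3
    have k7 := mul_le_mul_of_nonneg_left hin2 (by positivity : (0 : ℝ) ≤ 1552 * a)
    have kZ : Kf A F X Z Z = F (A Z) Z + X (Z : H) Z / 2 := by
      unfold Kf; rw [hO.Fs (Z : H) (A Z)]; ring
    have kZζ : Kf A F X Z ζ = (F (Z : H) (A ζ) + F (A Z) ζ + X (Z : H) ζ) / 2 := rfl
    simp only [map_add, map_smul, map_neg, add_apply, smul_apply, neg_apply, smul_eq_mul, neg_smul]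
    rw [hO.Fs (Z : H) (A Z), hO.Fs (ζ : H) (A Z), hO.Xs (ζ : H) (Z : H), hO.Fs (ζ : H) (Z : H)]
    nlinarith
  have hmain : ∀ δ : ℝ, 0 < δ → δ ≤ 1 → F (J δ (J δ (ω : H) : H) : H) (J δ (J δ (ω : H) : H) : H) ≤
      776 * a * inner ℝ (A ω) (J δ (J δ (ω : H) : H) : H) + 87 * a * ‖(ω : H)‖ ^ 2 := by
    intro δ hδ hδ1
    have h1 := le_of_hd hd hnn hδ hδ1
    have eK : ∀ s : ℝ, 0 < s → F (J s (J s (J s (ω : H) : H) : H) : H) (J s (J s (J s (A ω) : H) : H) : H)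
          + X (J s (J s (J s (ω : H) : H) : H) : H) (J s (J s (J s (ω : H) : H) : H) : H) / 2 =
          Kf A F X (J s (J s (J s (ω : H) : H) : H)) (J s (J s (J s (ω : H) : H) : H)) := by
      intro s hs
      have e1 : A (J s (J s (J s (ω : H) : H) : H)) = ((J s (J s (J s (A ω) : H) : H) : D) : H) := by
        rw [h.A_J hs (J s (J s (ω : H) : H)), h.A_J hs (J s (ω : H)), h.A_J hs ω]
      unfold Kf
      rw [e1, hO.Fs ((J s (J s (J s (ω : H) : H) : H) : D) : H) ((J s (J s (J s (A ω) : H) : H) : D) : H)]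
      ring
    rw [eK δ hδ, eK 1 one_pos] at h1
    have p1 : 0 ≤ δ * Kf A F X (J δ (J δ (J δ (ω : H) : H) : H)) (J δ (J δ (J δ (ω : H) : H) : H)) :=
      mul_nonneg hδ.le (hO.K0 _)
    have p2 : 0 ≤ δ * F (J δ (J δ (J δ (ω : H) : H) : H) : H) (J δ (J δ (J δ (ω : H) : H) : H) : H) :=
      mul_nonneg hδ.le (hO.F0 _)
    have q1 : ‖((J 1 (ω : H) : D) : H)‖ ^ 2 ≤ ‖(ω : H)‖ ^ 2 := h.sq_le one_pos _
    have q2 : ‖((J 1 (J 1 (ω : H) : H) : D) : H)‖ ^ 2 ≤ ‖(ω : H)‖ ^ 2 := (h.sq_le one_pos _).trans q1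
    have q3 := hO.bp 1 one_pos le_rfl ((J 1 (ω : H) : D) : H)
    have q4 := hO.bp 1 one_pos le_rfl ((J 1 (J 1 (ω : H) : H) : D) : H)
    have q5 := K_JJ h hO one_pos le_rfl ((J 1 (ω : H) : D) : H)
    have q6 : 0 ≤ inner ℝ ((J 1 (A ω) : D) : H) ((J 1 (ω : H) : D) : H) := by
      rw [← h.A_J one_pos ω]
      exact h.pos _
    have q7 : inner ℝ ((J δ (A ω) : D) : H) ((J δ (ω : H) : D) : H) =
        inner ℝ (A ω) ((J δ (J δ (ω : H) : H) : D) : H) := h.J_sym hδ _ _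
    rw [q7] at h1
    have q8 := mul_le_mul_of_nonneg_left q1 ha
    have q9 := mul_le_mul_of_nonneg_left q2 ha
    have q10 := mul_nonneg ha q6
    rw [div_one] at q3 q4
    rw [one_pow, one_mul] at q5
    nlinarith
  have hlim : Tendsto (fun δ => ((J δ (J δ (ω : H) : H) : D) : H)) (𝓝[>] 0) (𝓝 (ω : H)) := by
    have h1 := h.tendsto_D ω
    rw [tendsto_iff_norm_sub_tendsto_zero] at h1 ⊢
    have h2 : Tendsto (fun δ => ‖((J δ (ω : H) : D) : H) - ω‖ + ‖((J δ (ω : H) : D) : H) - ω‖) (𝓝[>] 0) (𝓝 (0 + 0)) :=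
      h1.add h1
    rw [add_zero] at h2
    refine squeeze_zero' (Eventually.of_forall fun _ => norm_nonneg _) ?_ h2
    filter_upwards [self_mem_nhdsWithin] with t ht
    have h3 := h.norm_le ht (((J t (ω : H) : D) : H) - ω)
    have e : ((J t (J t (ω : H) : H) : D) : H) - ω = ((J t (((J t (ω : H) : D) : H) - ω) : D) : H) +
        (((J t (ω : H) : D) : H) - ω) := by
      rw [map_sub]; simp
    rw [e]
    exact (norm_add_le _ _).trans (by gcongr)
  have l1 : Tendsto (fun δ => F (J δ (J δ (ω : H) : H) : H) (J δ (J δ (ω : H) : H) : H)) (𝓝[>] 0)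
      (𝓝 (F (ω : H) ω)) := tendsto_form F hlim hlim
  have l2 : Tendsto (fun δ => 776 * a * inner ℝ (A ω) (J δ (J δ (ω : H) : H) : H) + 87 * a * ‖(ω : H)‖ ^ 2)
      (𝓝[>] 0) (𝓝 (776 * a * inner ℝ (A ω) (ω : H) + 87 * a * ‖(ω : H)‖ ^ 2)) :=
    ((tendsto_const_nhds.inner hlim).const_mul _).add_const _
  refine le_of_tendsto_of_tendsto l1 l2 ?_
  have h01 : ∀ᶠ δ : ℝ in 𝓝[>] 0, δ ≤ 1 := nhdsWithin_le_nhds (Iic_mem_nhds one_pos)
  filter_upwards [self_mem_nhdsWithin, h01] with δ h1 h2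
  exact hmain δ h1 h2

theorem Rsv.tendsto2 [CompleteSpace H] (h : Rsv D A J) (x : H) :
    Tendsto (fun δ => ((J δ (J δ x : H) : D) : H)) (𝓝[>] 0) (𝓝 x) := by
  have h1 := h.tendsto x
  rw [tendsto_iff_norm_sub_tendsto_zero] at h1 ⊢
  have h2 : Tendsto (fun δ => ‖((J δ x : D) : H) - x‖ + ‖((J δ x : D) : H) - x‖) (𝓝[>] 0) (𝓝 (0 + 0)) :=
    h1.add h1
  rw [add_zero] at h2
  refine squeeze_zero' (Eventually.of_forall fun _ => norm_nonneg _) ?_ h2
  filter_upwards [self_mem_nhdsWithin] with t ht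
  have h3 := h.norm_le ht (((J t x : D) : H) - x)
  have e : ((J t (J t x : H) : D) : H) - x = ((J t (((J t x : D) : H) - x) : D) : H) +
      (((J t x : D) : H) - x) := by
    rw [map_sub]; simp
  rw [e]
  exact (norm_add_le _ _).trans (by gcongr)

/-- `F ≤ b (⟨A ·, ·⟩ + |·|²)` with `b = 776 a` -/
theorem star' (h : Rsv D A J) (hO : One A J F X a) (w : D) :
    F (w : H) w ≤ 776 * a * inner ℝ (A w) (w : H) + 776 * a * ‖(w : H)‖ ^ 2 := by
  have h1 := star h hO w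
  have h2 := mul_nonneg hO.ha (sq_nonneg ‖(w : H)‖)
  have : 87 * a * ‖(w : H)‖ ^ 2 ≤ 776 * a * ‖(w : H)‖ ^ 2 := by nlinarith
  linarith

/-- the energy decreases under the resolvent -/
theorem Rsv.energy (h : Rsv D A J) {s : ℝ} (hs : 0 < s) {m2 m3 : D}
    (em2 : (m2 : H) = (m3 : H) + s • A m3) : inner ℝ (A m3) (m3 : H) ≤ inner ℝ (A m2) (m2 : H) := by
  have e1 : m2 = m3 + (m2 - m3) := by abel
  have e2 : ((m2 - m3 : D) : H) = s • A m3 := by
    rw [AddSubgroupClass.coe_sub, em2]; abel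
  have e3 := h.pos (m2 - m3)
  have e4 : inner ℝ (A m2) (m2 : H) = inner ℝ (A m3) (m3 : H) + 2 * inner ℝ (A m3) ((m2 - m3 : D) : H)
      + inner ℝ (A (m2 - m3)) ((m2 - m3 : D) : H) := by
    have e5 : inner ℝ (A (m2 - m3)) (m3 : H) = inner ℝ (A m3) ((m2 - m3 : D) : H) := by
      rw [h.sym, real_inner_comm]
    have e6 : inner ℝ (A m2) (m2 : H) = inner ℝ (A (m3 + (m2 - m3))) ((m3 + (m2 - m3) : D) : H) := by
      rw [← e1]
    rw [e6, map_add, Submodule.coe_add, inner_add_left, inner_add_right, inner_add_right, e5]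
    ring
  rw [e4, e2, real_inner_smul_right, real_inner_self_eq_norm_sq]
  rw [e2] at e3
  have := mul_nonneg hs.le (sq_nonneg ‖A m3‖)
  linarith

theorem five_a (h : Rsv D A J) (hO : One A J F X a) {s : ℝ} (hs : 0 < s) (hs1 : s ≤ 1) {y W m2 m3 : D}
    (eAy : A y = (m3 : H)) (eWy : W = y + s • m3) (em2 : (m2 : H) = (m3 : H) + s • A m3) :
    4 * Kf A F X W m3 ≤ 16 * F (y : H) y + 8 * F (m2 : H) m2 + 35 * F (m3 : H) m3 := by
  have k1 := (abs_le.1 (K_abs hO y m3)).1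
  rw [eAy] at k1
  have k2 := K_le hO y
  rw [eAy] at k2
  have k3 := hO.F0 ((m3 : H) + (-1 : ℝ) • (y : H))
  rw [F_add hO] at k3
  have k4 := mul_le_mul_of_nonneg_left (K_le hO m3) hs.le
  have k5 := hO.F0 ((m3 : H) + (-s) • A m3)
  rw [F_add hO, hO.Fs (m3 : H) (A m3)] at k5
  have k6 : s ^ 2 * F (A m3) (A m3) ≤ 2 * F (m2 : H) m2 + 2 * F (m3 : H) m3 := by
    have e1 : s • A m3 = (m2 : H) + (-1 : ℝ) • (m3 : H) := by rw [em2]; module
    have e2 : s ^ 2 * F (A m3) (A m3) = F (s • A m3) (s • A m3) := by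
      simp only [map_smul, smul_apply, smul_eq_mul]; ring
    have e3 := hO.F0 ((m2 : H) + (1 : ℝ) • (m3 : H))
    rw [F_add hO] at e3
    rw [e2, e1, F_add hO]
    linarith
  have k7 : s * F (m3 : H) m3 ≤ 1 * F (m3 : H) m3 := mul_le_mul_of_nonneg_right hs1 (hO.F0 _)
  have k8 : Kf A F X W m3 = Kf A F X y m3 + s * Kf A F X m3 m3 := by
    rw [eWy]
    unfold Kf
    simp only [map_add, map_smul, add_apply, smul_apply, smul_eq_mul, Submodule.coe_add, Submodule.coe_smul]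
    ring
  rw [k8]
  linarith

theorem five_b (h : Rsv D A J) (hO : One A J F X a) {s : ℝ} (hs : 0 < s) (hs1 : s ≤ 1) {y W m2 m3 : D}
    (eAy : A y = (m3 : H)) (eWy : W = y + s • m3) (em2 : (m2 : H) = (m3 : H) + s • A m3) {P Q : ℝ}
    (n2 : ‖(m2 : H)‖ ^ 2 ≤ P) (n3 : ‖(m3 : H)‖ ^ 2 ≤ P) (n4 : ‖(y : H)‖ ^ 2 ≤ Q) :
    4 * Kf A F X W m3 ≤ 43 * (776 * a * inner ℝ (A m2) (m2 : H)) + 51 * (776 * a * (P + Q)) := by
  have t1 := five_a h hO hs hs1 eAy eWy em2
  have r2 := h.energy hs em2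
  have hb0 : 0 ≤ 776 * a := by have := hO.ha; positivity
  have r3 : inner ℝ (A y) (y : H) ≤ 1 / 2 * ‖(m3 : H)‖ ^ 2 + 1 / 2 * ‖(y : H)‖ ^ 2 := by
    rw [eAy]
    have e1 := real_inner_le_norm (m3 : H) (y : H)
    nlinarith [sq_nonneg (‖(m3 : H)‖ - ‖(y : H)‖)]
  have s2 := star' h hO m2
  have s3 := star' h hO m3
  have sy := star' h hO y
  have t2 := mul_le_mul_of_nonneg_left r2 hb0
  have t3 := mul_le_mul_of_nonneg_left r3 hb0
  have t4 := mul_le_mul_of_nonneg_left n2 hb0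
  have t5 := mul_le_mul_of_nonneg_left n3 hb0
  have t6 := mul_le_mul_of_nonneg_left n4 hb0
  have t7 : 0 ≤ 776 * a * Q := mul_nonneg hb0 ((sq_nonneg _).trans n4)
  linarith

/-- (5) the derivative -/
theorem five (h : Rsv D A J) (hO : One A J F X a) (z : D) {s : ℝ} (hs : 0 < s) (hs1 : s ≤ 1) :
    0 ≤ (((F (-(2 : ℝ) • ((J s (J s (A (J s (z : H))) : H) : D) : H)) (J s (J s (A z) : H) : H)
            + F (J s (J s (z : H) : H) : H) (-(2 : ℝ) • ((J s (J s (A (J s (A z))) : H) : D) : H)))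
          + (X (-(2 : ℝ) • ((J s (J s (A (J s (z : H))) : H) : D) : H)) (J s (J s (z : H) : H) : H)
            + X (J s (J s (z : H) : H) : H) (-(2 : ℝ) • ((J s (J s (A (J s (z : H))) : H) : D) : H))) / 2)
      - 26 * (776 * a) * (inner ℝ (J s (A z) : H) (-((J s (A (J s (A z))) : D) : H))
          + inner ℝ (-((J s (A (J s (A z))) : D) : H)) (J s (A z) : H))
      + 60 * (776 * a) * (‖A z‖ ^ 2 + ‖(z : H)‖ ^ 2) * 1) := by
  have eA : A (J s (z : H)) = ((J s (A z) : D) : H) := h.A_J hs z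
  rw [eA]
  set m1 : D := J s (A z) with hm1
  set m2 : D := J s (m1 : H) with hm2
  set m3 : D := J s (m2 : H) with hm3
  set W : D := J s (J s (z : H) : H) with hW
  set y : D := J s (W : H) with hy
  have eAW : A W = (m2 : H) := by rw [hW, h.A_J hs (J s (z : H)), eA]
  have eAy : A y = (m3 : H) := by rw [hy, h.A_J hs W, eAW]
  have eWy : W = y + s • m3 := by
    apply Subtype.ext
    have := h.res s hs (W : H)
    rw [← hy, eAy] at this
    rw [Submodule.coe_add, Submodule.coe_smul]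
    exact this.symm
  have eAm2 : A m2 = ((J s (A m1) : D) : H) := by rw [hm2, h.A_J hs m1]
  have eAm3 : A m3 = ((J s (J s (A m1) : H) : D) : H) := by rw [hm3, h.A_J hs m2, eAm2]
  rw [← eAm3, ← eAm2]
  have em1 : (m1 : H) = (m2 : H) + s • A m2 := (h.res s hs _).symm
  have em2 : (m2 : H) = (m3 : H) + s • A m3 := (h.res s hs _).symm
  have r1 : inner ℝ (m1 : H) (A m2) = inner ℝ (A m2) (m2 : H) + s * ‖A m2‖ ^ 2 := by
    rw [em1, inner_add_left, real_inner_smul_left, real_inner_self_eq_norm_sq, real_inner_comm]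
  have r0 := h.pos m2
  have n1 : ‖(m1 : H)‖ ^ 2 ≤ ‖A z‖ ^ 2 := h.sq_le hs _
  have n2 : ‖(m2 : H)‖ ^ 2 ≤ ‖A z‖ ^ 2 := (h.sq_le hs _).trans n1
  have n3 : ‖(m3 : H)‖ ^ 2 ≤ ‖A z‖ ^ 2 := (h.sq_le hs _).trans n2
  have n4 : ‖(y : H)‖ ^ 2 ≤ ‖(z : H)‖ ^ 2 :=
    (h.sq_le hs _).trans ((h.sq_le hs _).trans (h.sq_le hs _))
  have key := five_b h hO hs hs1 eAy eWy em2 n2 n3 n4
  have eder : ((F (-(2 : ℝ) • (m3 : H)) (m2 : H) + F (W : H) (-(2 : ℝ) • A m3))
        + (X (-(2 : ℝ) • (m3 : H)) (W : H) + X (W : H) (-(2 : ℝ) • (m3 : H))) / 2) =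
      -(4 * Kf A F X W m3) := by
    unfold Kf
    rw [eAW]
    simp only [map_smul, smul_apply, smul_eq_mul]
    rw [hO.Fs (m3 : H) (m2 : H), hO.Xs (m3 : H) (W : H)]
    ring
  rw [eder, inner_neg_right, inner_neg_left, real_inner_comm (m1 : H) (A m2), r1]
  have hb0 : 0 ≤ 776 * a := by have := hO.ha; positivity
  have u1 : 0 ≤ 776 * a * inner ℝ (A m2) (m2 : H) := mul_nonneg hb0 r0
  have u2 : 0 ≤ 776 * a * (s * ‖A m2‖ ^ 2) := mul_nonneg hb0 (mul_nonneg hs.le (sq_nonneg _))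
  have u3 : 0 ≤ 776 * a * (‖A z‖ ^ 2 + ‖(z : H)‖ ^ 2) := mul_nonneg hb0 (by positivity)
  linarith

/-- (5) the main inequality at level one -/
theorem main_one [CompleteSpace H] (h : Rsv D A J) (hO : One A J F X a) (z : D) :
    Kf A F X z z ≤ 70000 * a * (‖A z‖ ^ 2 + ‖(z : H)‖ ^ 2) := by
  have ha := hO.ha
  have hd : ∀ s : ℝ, 0 < s → HasDerivAt (fun t : ℝ =>
      (F (J t (J t (z : H) : H) : H) (J t (J t (A z) : H) : H)
          + X (J t (J t (z : H) : H) : H) (J t (J t (z : H) : H) : H) / 2)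
      - 26 * (776 * a) * inner ℝ (J t (A z) : H) (J t (A z) : H)
      + 60 * (776 * a) * (‖A z‖ ^ 2 + ‖(z : H)‖ ^ 2) * t)
      (((F (-(2 : ℝ) • ((J s (J s (A (J s (z : H))) : H) : D) : H)) (J s (J s (A z) : H) : H)
            + F (J s (J s (z : H) : H) : H) (-(2 : ℝ) • ((J s (J s (A (J s (A z))) : H) : D) : H)))
          + (X (-(2 : ℝ) • ((J s (J s (A (J s (z : H))) : H) : D) : H)) (J s (J s (z : H) : H) : H)
            + X (J s (J s (z : H) : H) : H) (-(2 : ℝ) • ((J s (J s (A (J s (z : H))) : H) : D) : H))) / 2)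
      - 26 * (776 * a) * (inner ℝ (J s (A z) : H) (-((J s (A (J s (A z))) : D) : H))
          + inner ℝ (-((J s (A (J s (A z))) : D) : H)) (J s (A z) : H))
      + 60 * (776 * a) * (‖A z‖ ^ 2 + ‖(z : H)‖ ^ 2) * 1) s := by
    intro s hs
    have w2 := h.hd2 hs (z : H)
    have x2 := h.hd2 hs (A z)
    have x1 := h.hd1 hs (A z)
    exact (((hd_form F w2 x2).add ((hd_form X w2 w2).div_const 2)).sub
      ((x1.inner ℝ x1).const_mul (26 * (776 * a)))).add
      ((hasDerivAt_id s).const_mul (60 * (776 * a) * (‖A z‖ ^ 2 + ‖(z : H)‖ ^ 2)))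
  have hmain : ∀ δ : ℝ, 0 < δ → δ ≤ 1 →
      F (J δ (J δ (z : H) : H) : H) (J δ (J δ (A z) : H) : H)
          + X (J δ (J δ (z : H) : H) : H) (J δ (J δ (z : H) : H) : H) / 2 ≤
        70000 * a * (‖A z‖ ^ 2 + ‖(z : H)‖ ^ 2) := by
    intro δ hδ hδ1
    have h1 := le_of_hd hd (fun s hs hs1 => five h hO z hs hs1) hδ hδ1
    have e1 : F (J 1 (J 1 (z : H) : H) : H) (J 1 (J 1 (A z) : H) : H)
          + X (J 1 (J 1 (z : H) : H) : H) (J 1 (J 1 (z : H) : H) : H) / 2 =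
          Kf A F X (J 1 (J 1 (z : H) : H)) (J 1 (J 1 (z : H) : H)) := by
      have e2 : A (J 1 (J 1 (z : H) : H)) = ((J 1 (J 1 (A z) : H) : D) : H) := by
        rw [h.A_J one_pos (J 1 (z : H)), h.A_J one_pos z]
      unfold Kf
      rw [e2, hO.Fs ((J 1 (J 1 (z : H) : H) : D) : H) ((J 1 (J 1 (A z) : H) : D) : H)]
      ring
    rw [e1] at h1
    have q1 := K_JJ h hO one_pos le_rfl (z : H)
    rw [one_pow, one_mul] at q1
    have q2 : ‖((J δ (A z) : D) : H)‖ ^ 2 ≤ ‖A z‖ ^ 2 := h.sq_le hδ _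
    rw [real_inner_self_eq_norm_sq, real_inner_self_eq_norm_sq] at h1
    have q3 := mul_le_mul_of_nonneg_left q2 ha
    have q4 : 0 ≤ a * ‖((J 1 (A z) : D) : H)‖ ^ 2 := by positivity
    have q5 : 0 ≤ a * (‖A z‖ ^ 2 + ‖(z : H)‖ ^ 2) * δ := by positivity
    have q6 : 0 ≤ a * ‖(z : H)‖ ^ 2 := by positivity
    have q10 : 0 ≤ a * ‖A z‖ ^ 2 := by positivity
    linarith
  have l1 : Tendsto (fun δ => F (J δ (J δ (z : H) : H) : H) (J δ (J δ (A z) : H) : H)
          + X (J δ (J δ (z : H) : H) : H) (J δ (J δ (z : H) : H) : H) / 2) (𝓝[>] 0)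
      (𝓝 (F (z : H) (A z) + X (z : H) z / 2)) :=
    (tendsto_form F (h.tendsto2 _) (h.tendsto2 _)).add ((tendsto_form X (h.tendsto2 _) (h.tendsto2 _)).div_const 2)
  have h01 : ∀ᶠ δ : ℝ in 𝓝[>] 0, δ ≤ 1 := nhdsWithin_le_nhds (Iic_mem_nhds one_pos)
  have h2 : F (z : H) (A z) + X (z : H) z / 2 ≤ 70000 * a * (‖A z‖ ^ 2 + ‖(z : H)‖ ^ 2) := by
    refine le_of_tendsto l1 ?_
    filter_upwards [self_mem_nhdsWithin, h01] with δ h1 h2
    exact hmain δ h1 h2
  have h3 : Kf A F X z z = F (z : H) (A z) + X (z : H) z / 2 := by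
    unfold Kf; rw [hO.Fs (A z) (z : H)]; ring
  rw [h3]
  exact h2

/-- the data at level one of a chain -/
theorem Chain.one (h : Rsv D A J) (hB : Chain A B) : One A J (B 1) (Xf B 0) (50 * Real.exp 18) where
  Fs := hB.symm 1
  Xs := fun x y => by
    unfold Xf
    simp only [smul_apply, sub_apply]
    rw [hB.symm (0 + 1) x y, hB.symm 0 x y]
  F0 := hB.nonneg 1
  K0 := hB.Kpos 0
  cs := fun z e => by
    have h1 := hB.cs 0 z e
    norm_num at h1
    exact h1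
  ha := by positivity
  bp := fun t ht ht1 q => bprime h hB ht ht1 q

/-- **the abstract layer**: (h1'), (h2), (h3), (h4) imply the gradient estimate at level one -/
theorem abs_main [CompleteSpace H] (h : Rsv D A J) (hB : Chain A B) (z : D) :
    Kf A (B 1) (Xf B 0) z z ≤ 3500000 * Real.exp 18 * (‖A z‖ ^ 2 + ‖(z : H)‖ ^ 2) := by
  have h1 := main_one h (hB.one h) z
  have e : (70000 : ℝ) * (50 * Real.exp 18) = 3500000 * Real.exp 18 := by ring
  rw [e] at h1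
  exact h1

/-- with the spectral gap -/
theorem abs_main_gap [CompleteSpace H] (h : Rsv D A J) (hB : Chain A B) (z : D)
    (hz : ‖(z : H)‖ ^ 2 ≤ inner ℝ (A z) (z : H)) :
    Kf A (B 1) (Xf B 0) z z ≤ 7000000 * Real.exp 18 * ‖A z‖ ^ 2 := by
  have h1 := abs_main h hB z
  have h2 := real_inner_le_norm (A z) (z : H)
  have h3 : ‖(z : H)‖ ≤ ‖A z‖ := by
    by_contra hc
    have hc := not_le.1 hc
    have h4 := norm_nonneg (A z)
    nlinarith
  have h4 : ‖(z : H)‖ ^ 2 ≤ ‖A z‖ ^ 2 := pow_le_pow_left₀ (norm_nonneg _) h3 2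
  have h5 := mul_le_mul_of_nonneg_left h4 (by positivity : 0 ≤ 3500000 * Real.exp 18)
  linarith

end forms

end Vale.Agent.P245.H806.AbsR
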